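import Vale.Agent.P267.H365.Pair

/-!
# P267, D-DIVLB: the dual frame of a nowhere zero section of a projector line bundle (helper365)
-/

open scoped Manifold ContDiff ComplexConjugate Matrix Topology ComplexOrder
open Set Filter

noncomputable section

namespace Vale.Agent.P267.H365

open Vale.Agent.P267.FL

set_option linter.unusedSectionVars false

variable {ι : Type} [Fintype ι] [DecidableEq ι]

/-- a hermitian projector of trace one fixing `s ≠ 0` is `s s^* / |s|²` (proof of helper509) -/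
theorem rank_one {P : Matrix ι ι ℂ} (hh : Pᴴ = P) (hi : P * P = P) (ht : P.trace = 1)
    {s : ι → ℂ} (hs : P.mulVec s = s) (h0 : s ≠ 0) :
    P = Matrix.vecMulVec s (fun k => conj (s k) / ∑ j, conj (s j) * s j) := by
  set n : ℂ := ∑ j, conj (s j) * s j with hn
  have hn0 : n ≠ 0 := by
    intro h
    apply h0
    have h1 : s ⬝ᵥ star s = 0 := by
      rw [dotProduct_comm, ← h, hn]; rfl
    exact dotProduct_self_star_eq_zero.1 h1
  have hnc : conj n = n := by
    rw [hn, map_sum]
    refine Finset.sum_congr rfl fun j _ => ?_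
    rw [map_mul, Complex.conj_conj, mul_comm]
  set R := Matrix.vecMulVec s (fun k => conj (s k) / n) with hR
  have hvs : (fun k => conj (s k) / n) ⬝ᵥ s = 1 := by
    simp only [dotProduct, div_mul_eq_mul_div, ← Finset.sum_div]
    rw [← hn, div_self hn0]
  have hRR : R * R = R := by
    rw [hR, Matrix.vecMulVec_mul_vecMulVec, hvs, one_smul]
  have hPR : P * R = R := by
    rw [hR, Matrix.mul_vecMulVec, hs]
  have hRh : Rᴴ = R := by
    ext i j
    simp only [hR, Matrix.conjTranspose_apply, Matrix.vecMulVec_apply, star_mul', RCLike.star_def,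
      map_div₀, Complex.conj_conj, hnc]
    ring
  have hRP : R * P = R := by
    have := congrArg Matrix.conjTranspose hPR
    rwa [Matrix.conjTranspose_mul, hh, hRh] at this
  have hQ : (P - R)ᴴ * (P - R) = P - R := by
    rw [Matrix.conjTranspose_sub, hh, hRh, sub_mul, mul_sub, mul_sub, hi, hPR, hRP, hRR]
    abel
  have hRt : R.trace = 1 := by
    rw [hR, Matrix.trace_vecMulVec, dotProduct_comm, hvs]
  have h1 : ((P - R)ᴴ * (P - R)).trace = 0 := by
    rw [hQ, Matrix.trace_sub, ht, hRt, sub_self]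
  have h2 := Matrix.trace_conjTranspose_mul_self_eq_zero_iff.1 h1
  exact sub_eq_zero.1 h2

/-- `|v|²` as a complex number -/
def nq (v : EuclideanSpace ℂ ι) : ℂ := ∑ j, conj (v j) * v j

theorem nq_eq (v : EuclideanSpace ℂ ι) : nq v = ((‖v‖ ^ 2 : ℝ) : ℂ) := by
  rw [nq, EuclideanSpace.norm_sq_eq, Complex.ofReal_sum]
  refine Finset.sum_congr rfl fun j _ => ?_
  rw [← Complex.normSq_eq_conj_mul_self, Complex.normSq_eq_norm_sq]

theorem nq_ne_zero {v : EuclideanSpace ℂ ι} (hv : v ≠ 0) : nq v ≠ 0 := by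
  rw [nq_eq]
  exact_mod_cast pow_ne_zero 2 (norm_ne_zero_iff.2 hv)

/-- the dual frame `v̄ / |v|²` -/
def dfr (v : EuclideanSpace ℂ ι) : EuclideanSpace ℂ ι :=
  WithLp.toLp 2 fun k => conj (v k) / nq v

theorem dfr_apply (v : EuclideanSpace ℂ ι) (k : ι) : dfr v k = conj (v k) / nq v := rfl

theorem pr_dfr {v : EuclideanSpace ℂ ι} (hv : v ≠ 0) : pr (dfr v) v = 1 := by
  simp only [pr, dfr_apply, div_mul_eq_mul_div, ← Finset.sum_div]
  exact div_self (nq_ne_zero hv)

theorem dfr_smul {c : ℂ} (hc : c ≠ 0) (v : EuclideanSpace ℂ ι) : dfr (c • v) = c⁻¹ • dfr v := by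
  have h : nq (c • v) = (conj c * c) * nq v := by
    simp only [nq, Finset.mul_sum, PiLp.smul_apply, smul_eq_mul, map_mul]
    exact Finset.sum_congr rfl fun j _ => by ring
  ext k
  rw [dfr_apply, h, PiLp.smul_apply, PiLp.smul_apply, dfr_apply, smul_eq_mul, smul_eq_mul, map_mul]
  have hc' : conj c ≠ 0 := (map_ne_zero _).2 hc
  by_cases hn : nq v = 0
  · rw [hn]; simp
  · field_simp

variable {X : Type*} [TopologicalSpace X] [ChartedSpace C2 X] {L : LB X ι}

theorem P_eq_frame {x : X} {v : EuclideanSpace ℂ ι} (hv : LB.act (L.P x) v = v) (h0 : v ≠ 0) :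
    L.P x = Matrix.vecMulVec (v : ι → ℂ) (dfr v : ι → ℂ) := by
  have h1 : (L.P x).mulVec (v : ι → ℂ) = v := by
    have := congrArg (fun w : EuclideanSpace ℂ ι => (w : ι → ℂ)) hv
    exact this
  have h2 : (v : ι → ℂ) ≠ 0 := by
    intro h
    apply h0
    ext i
    exact congrFun h i
  exact rank_one (L.herm x) (L.idem x) (L.tr x) h1 h2

/-- a vector in the fibre of `L^*` is a multiple of the dual frame -/
theorem dual_eq {x : X} {v w : EuclideanSpace ℂ ι} (hv : LB.act (L.P x) v = v) (h0 : v ≠ 0)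
    (hw : LB.act (L.dual.P x) w = w) : w = pr w v • dfr v := by
  have h1 : LB.act (L.P x)ᵀ w = w := hw
  rw [← h1, P_eq_frame hv h0]
  conv_rhs => rw [← P_eq_frame (L := L) hv h0, h1]
  ext k
  rw [PiLp.smul_apply, smul_eq_mul]
  change ((Matrix.vecMulVec (v : ι → ℂ) (dfr v : ι → ℂ))ᵀ.mulVec w) k = _
  simp only [Matrix.mulVec, dotProduct, Matrix.transpose_apply, Matrix.vecMulVec_apply, pr,
    Finset.sum_mul]
  exact Finset.sum_congr rfl fun j _ => by ring

/-- the dual frame is in the fibre of `L^*` -/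
theorem act_dfr {x : X} {v : EuclideanSpace ℂ ι} (hv : LB.act (L.P x) v = v) (h0 : v ≠ 0) :
    LB.act (L.dual.P x) (dfr v) = dfr v := by
  change LB.act (L.P x)ᵀ (dfr v) = dfr v
  rw [P_eq_frame hv h0]
  ext k
  change ((Matrix.vecMulVec (v : ι → ℂ) (dfr v : ι → ℂ))ᵀ.mulVec (dfr v)) k = _
  simp only [Matrix.mulVec, dotProduct, Matrix.transpose_apply, Matrix.vecMulVec_apply]
  have := pr_dfr h0
  rw [pr] at this
  calc ∑ j, v j * dfr v k * dfr v j = dfr v k * ∑ j, dfr v j * v j := by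
        rw [Finset.mul_sum]
        exact Finset.sum_congr rfl fun j _ => by ring
    _ = dfr v k := by rw [this, mul_one]

theorem act_smul (M : Matrix ι ι ℂ) (c : ℂ) (v : EuclideanSpace ℂ ι) :
    LB.act M (c • v) = c • LB.act M v := by
  simp only [LB.act]
  ext i
  simp [Matrix.mulVec_smul]

theorem contDiffAt_dfr {n : WithTop ℕ∞} {f : C2 → EuclideanSpace ℂ ι} {z : C2}
    (hf : ContDiffAt ℝ n f z) (h0 : f z ≠ 0) : ContDiffAt ℝ n (fun y => dfr (f y)) z := by
  have hc : ∀ i, ContDiffAt ℝ n (fun y => f y i) z := fun i =>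
    ((PiLp.proj (𝕜 := ℝ) 2 (fun _ : ι => ℂ) i).contDiff.contDiffAt).comp _ hf
  have hcc : ∀ i, ContDiffAt ℝ n (fun y => conj (f y i)) z := fun i =>
    (Complex.conjCLE.contDiff.contDiffAt).comp _ (hc i)
  have hn : ContDiffAt ℝ n (fun y => nq (f y)) z := by
    unfold nq
    exact ContDiffAt.sum fun i _ => (hcc i).mul (hc i)
  have h1 : ContDiffAt ℝ n (fun y => fun i => conj (f y i) / nq (f y)) z :=
    contDiffAt_pi.2 fun i => by
      simp only [div_eq_mul_inv]
      exact (hcc i).mul (ContDiffAt.inv hn (nq_ne_zero h0))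
  exact ((PiLp.continuousLinearEquiv 2 ℝ (fun _ : ι => ℂ)).symm.contDiff.contDiffAt).comp _ h1

theorem at0_dfr {v : X → EuclideanSpace ℂ ι} {x : X} (hv : At0 ∞ 0 v x) (h0 : v x ≠ 0) :
    At0 ∞ 0 (fun y => dfr (v y)) x := by
  rw [At0, LB.loc0_zero] at hv ⊢
  refine contDiffAt_dfr hv ?_
  rw [(chartAt C2 x).left_inv (mem_chart_source C2 x)]
  exact h0

end Vale.Agent.P267.H365
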