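import Vale.Agent.P267.H399.Calc2

/-!
# P267, D-DIVLB (4): the pairing of the dual bundle with a section, Leibniz rules (helper365)

`pr w s = ∑ i, w i * s i` is the complex bilinear pairing of `EuclideanSpace ℂ ι` with itself. For
`w` a section (or form) with values in `L.dual` and `s` a section of `L` it is a scalar function
(form), and `∂̄ (pr w s) = pr (∂̄ w) s + pr w (∂̄ s)` for the holomorphic structures `-a`, `a`.
-/

open scoped Manifold ContDiff ComplexConjugate Matrix Topology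
open Set Filter

noncomputable section

namespace Vale.Agent.P267.H365

open Vale.Agent.P267.FL

set_option linter.unusedSectionVars false

variable {ι : Type} [Fintype ι]

/-- the bilinear pairing -/
def pr (w s : EuclideanSpace ℂ ι) : ℂ := ∑ i, w i * s i

theorem pr_comm (w s : EuclideanSpace ℂ ι) : pr w s = pr s w := by
  unfold pr
  exact Finset.sum_congr rfl fun i _ => mul_comm _ _

theorem pr_add_left (w w' s : EuclideanSpace ℂ ι) : pr (w + w') s = pr w s + pr w' s := by
  unfold pr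
  rw [← Finset.sum_add_distrib]
  exact Finset.sum_congr rfl fun i _ => by rw [PiLp.add_apply, add_mul]

theorem pr_smul_left (c : ℂ) (w s : EuclideanSpace ℂ ι) : pr (c • w) s = c * pr w s := by
  unfold pr
  rw [Finset.mul_sum]
  exact Finset.sum_congr rfl fun i _ => by rw [PiLp.smul_apply, smul_eq_mul, mul_assoc]

theorem pr_add_right (w s s' : EuclideanSpace ℂ ι) : pr w (s + s') = pr w s + pr w s' := by
  rw [pr_comm, pr_add_left, pr_comm s, pr_comm s']

theorem pr_smul_right (c : ℂ) (w s : EuclideanSpace ℂ ι) : pr w (c • s) = c * pr w s := by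
  rw [pr_comm, pr_smul_left, pr_comm s]

theorem pr_neg_left (w s : EuclideanSpace ℂ ι) : pr (-w) s = -pr w s := by
  have := pr_smul_left (-1) w s
  simpa using this

theorem pr_sub_left (w w' s : EuclideanSpace ℂ ι) : pr (w - w') s = pr w s - pr w' s := by
  rw [sub_eq_add_neg, pr_add_left, pr_neg_left, ← sub_eq_add_neg]

theorem pr_zero_left (s : EuclideanSpace ℂ ι) : pr 0 s = 0 := by simp [pr]

theorem pr_zero_right (w : EuclideanSpace ℂ ι) : pr w 0 = 0 := by simp [pr]

theorem pr_act [DecidableEq ι] (M : Matrix ι ι ℂ) (w s : EuclideanSpace ℂ ι) :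
    pr w (LB.act M s) = pr (LB.act Mᵀ w) s := by
  unfold pr LB.act
  change (w : ι → ℂ) ⬝ᵥ (M.mulVec s) = (Mᵀ.mulVec w) ⬝ᵥ (s : ι → ℂ)
  rw [Matrix.dotProduct_mulVec, Matrix.mulVec_transpose]

section flat

variable {f g : C2 → EuclideanSpace ℂ ι} {z : C2}

theorem differentiableAt_coord (hf : DifferentiableAt ℝ f z) (i : ι) :
    DifferentiableAt ℝ (fun y => f y i) z :=
  ((EuclideanSpace.proj i : EuclideanSpace ℂ ι →L[ℂ] ℂ).restrictScalars ℝ).differentiableAt.comp z
    hf

theorem dzb_coord (hf : DifferentiableAt ℝ f z) (j : Fin 2) (i : ι) :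
    dzb j (fun y => f y i) z = dzb j f z i :=
  dzb_clm (EuclideanSpace.proj i : EuclideanSpace ℂ ι →L[ℂ] ℂ) hf j

theorem dz_coord (hf : DifferentiableAt ℝ f z) (j : Fin 2) (i : ι) :
    dz j (fun y => f y i) z = dz j f z i :=
  dz_clm (EuclideanSpace.proj i : EuclideanSpace ℂ ι →L[ℂ] ℂ) hf j

theorem dzb_pr (hf : DifferentiableAt ℝ f z) (hg : DifferentiableAt ℝ g z) (j : Fin 2) :
    dzb j (fun y => pr (f y) (g y)) z = pr (f z) (dzb j g z) + pr (dzb j f z) (g z) := by
  have h := dzb_sum Finset.univ (f := fun (i : ι) y => f y i * g y i)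
    (fun i _ => (differentiableAt_coord hf i).mul (differentiableAt_coord hg i)) j
  unfold pr
  rw [h, ← Finset.sum_add_distrib]
  refine Finset.sum_congr rfl fun i _ => ?_
  rw [dzb_mul (differentiableAt_coord hf i) (differentiableAt_coord hg i), dzb_coord hf,
    dzb_coord hg]

theorem dz_pr (hf : DifferentiableAt ℝ f z) (hg : DifferentiableAt ℝ g z) (j : Fin 2) :
    dz j (fun y => pr (f y) (g y)) z = pr (f z) (dz j g z) + pr (dz j f z) (g z) := by
  have h := dz_sum Finset.univ (f := fun (i : ι) y => f y i * g y i)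
    (fun i _ => (differentiableAt_coord hf i).mul (differentiableAt_coord hg i)) j
  unfold pr
  rw [h, ← Finset.sum_add_distrib]
  refine Finset.sum_congr rfl fun i _ => ?_
  rw [dz_mul (differentiableAt_coord hf i) (differentiableAt_coord hg i), dz_coord hf,
    dz_coord hg]

theorem contDiffAt_pr {n : WithTop ℕ∞} (hf : ContDiffAt ℝ n f z) (hg : ContDiffAt ℝ n g z) :
    ContDiffAt ℝ n (fun y => pr (f y) (g y)) z := by
  unfold pr
  have h : ∀ (h : C2 → EuclideanSpace ℂ ι) (i : ι), ContDiffAt ℝ n h z →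
      ContDiffAt ℝ n (fun y => h y i) z := fun h i hh =>
    ((EuclideanSpace.proj i : EuclideanSpace ℂ ι →L[ℂ] ℂ).restrictScalars ℝ).contDiff.contDiffAt.comp
      z hh
  exact ContDiffAt.sum fun i _ => (h f i hf).mul (h g i hg)

end flat

section mfd

variable {X : Type*} [TopologicalSpace X] [ChartedSpace C2 X]

theorem loc0_pr (κ : ℤ) (e : Ch X) (w s : X → EuclideanSpace ℂ ι) (z : C2) :
    loc0 κ e (fun y => pr (w y) (s y)) z = pr (loc0 κ e w z) (s (e.symm z)) := by
  simp only [loc0, pr_smul_left, smul_eq_mul]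

theorem loc1_pr (κ : ℤ) (e : Ch X) (w : X → Fin 2 → EuclideanSpace ℂ ι)
    (s : X → EuclideanSpace ℂ ι) (z : C2) (j : Fin 2) :
    loc1 κ e (fun y p => pr (w y p) (s y)) z j = pr (loc1 κ e w z j) (s (e.symm z)) := by
  simp only [loc1, pr_smul_left, smul_eq_mul, Fin.sum_univ_two, pr_add_left]

theorem loc2_pr (κ : ℤ) (e : Ch X) (w s : X → EuclideanSpace ℂ ι) (z : C2) :
    loc2 κ e (fun y => pr (w y) (s y)) z = pr (loc2 κ e w z) (s (e.symm z)) := by
  simp only [loc2, pr_smul_left, smul_eq_mul]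

variable {κ : ℤ} {s : X → EuclideanSpace ℂ ι} {x : X}

theorem at0_symm {V : Type*} [NormedAddCommGroup V] [NormedSpace ℂ V] {s : X → V}
    (hs : At0 ∞ 0 s x) :
    ContDiffAt ℝ ∞ (fun z => s ((chartAt C2 x).symm z)) (chartAt C2 x x) := by
  have := hs
  rw [At0, LB.loc0_zero] at this
  exact this

theorem at0_pr {w : X → EuclideanSpace ℂ ι} (hw : At0 ∞ κ w x) (hs : At0 ∞ 0 s x) :
    At0 ∞ κ (fun y => pr (w y) (s y)) x := by
  have h : loc0 κ (chartAt C2 x) (fun y => H365.pr (w y) (s y)) =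
      fun z => H365.pr (loc0 κ (chartAt C2 x) w z) (s ((chartAt C2 x).symm z)) := by
    funext z
    exact loc0_pr κ _ w s z
  rw [At0, h]
  exact contDiffAt_pr hw (at0_symm hs)

theorem at1_pr {w : X → Fin 2 → EuclideanSpace ℂ ι} (hw : At1 ∞ κ w x) (hs : At0 ∞ 0 s x) :
    At1 ∞ κ (fun y p => pr (w y p) (s y)) x := by
  rw [At1, contDiffAt_pi]
  intro j
  have h : (fun z => loc1 κ (chartAt C2 x) (fun y p => H365.pr (w y p) (s y)) z j) =
      fun z => H365.pr (loc1 κ (chartAt C2 x) w z j) (s ((chartAt C2 x).symm z)) := by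
    funext z
    exact loc1_pr κ _ w s z j
  rw [h]
  exact contDiffAt_pr ((contDiffAt_pi.1 hw) j) (at0_symm hs)

theorem at2_pr {w : X → EuclideanSpace ℂ ι} (hw : At2 ∞ κ w x) (hs : At0 ∞ 0 s x) :
    At2 ∞ κ (fun y => pr (w y) (s y)) x := by
  have h : loc2 κ (chartAt C2 x) (fun y => H365.pr (w y) (s y)) =
      fun z => H365.pr (loc2 κ (chartAt C2 x) w z) (s ((chartAt C2 x).symm z)) := by
    funext z
    exact loc2_pr κ _ w s z
  rw [At2, h]
  exact contDiffAt_pr hw (at0_symm hs)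

variable [IsManifold 𝓘(ℂ, C2) ω X]

/-- **Leibniz**, degree `0` -/
theorem dbar0_pr {w : X → EuclideanSpace ℂ ι} (hw : At0 ∞ κ w x) (hs : At0 ∞ 0 s x) (j : Fin 2) :
    dbar0 κ (fun y => pr (w y) (s y)) x j = pr (w x) (dbar0 0 s x j) + pr (dbar0 κ w x j) (s x) := by
  have h : loc0 κ (chartAt C2 x) (fun y => H365.pr (w y) (s y)) =
      fun z => H365.pr (loc0 κ (chartAt C2 x) w z) (s ((chartAt C2 x).symm z)) := by
    funext z
    exact loc0_pr κ _ w s z
  rw [dbar0, h, dzb_pr (hw.diff (by simp)) ((at0_symm hs).differentiableAt (by simp)),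
    (chartAt C2 x).left_inv (mem_chart_source C2 x), loc0_chartAt, dbar0, dbar0, LB.loc0_zero]
  rfl

/-- **Leibniz**, degree `1` -/
theorem dbar1_pr {w : X → Fin 2 → EuclideanSpace ℂ ι} (hw : At1 ∞ κ w x) (hs : At0 ∞ 0 s x) :
    dbar1 κ (fun y p => pr (w y p) (s y)) x =
      pr (dbar1 κ w x) (s x) + (pr (w x 1) (dbar0 0 s x 0) - pr (w x 0) (dbar0 0 s x 1)) := by
  have h : ∀ j, (fun z => loc1 κ (chartAt C2 x) (fun y p => H365.pr (w y p) (s y)) z j) =
      fun z => H365.pr (loc1 κ (chartAt C2 x) w z j) (s ((chartAt C2 x).symm z)) := by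
    intro j
    funext z
    exact loc1_pr κ _ w s z j
  have hd : ∀ j, DifferentiableAt ℝ (fun z => loc1 κ (chartAt C2 x) w z j) (chartAt C2 x x) :=
    fun j => hw.diff' (by simp) j
  have hs' := (at0_symm hs).differentiableAt (by simp)
  rw [dbar1, h, h, dzb_pr (hd 1) hs', dzb_pr (hd 0) hs',
    (chartAt C2 x).left_inv (mem_chart_source C2 x), loc1_chartAt, dbar1,
    pr_sub_left, dbar0, dbar0, LB.loc0_zero]
  simp only [Function.comp_def]
  ring

variable [DecidableEq ι] {L : LB X ι} {a : X → Fin 2 → ℂ}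

theorem pr_act_dual (x : X) (w s : EuclideanSpace ℂ ι) (hw : LB.act (L.dual.P x) w = w) :
    pr w (LB.act (L.P x) s) = pr w s := by
  rw [pr_act]
  change pr (LB.act (L.dual.P x) w) s = _
  rw [hw]

theorem pr_act_left (x : X) (w s : EuclideanSpace ℂ ι) (hs : LB.act (L.P x) s = s) :
    pr (LB.act (L.dual.P x) w) s = pr w s := by
  change pr (LB.act (L.P x)ᵀ w) s = _
  rw [← pr_act, hs]

/-- `∂̄` of the pairing with a holomorphic section, degree `0` -/
theorem dbar0_pr_hol {w : X → EuclideanSpace ℂ ι} (hw : At0 ∞ κ w x) (hs : At0 ∞ 0 s x)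
    (hwx : LB.act (L.dual.P x) (w x) = w x) (hsx : LB.act (L.P x) (s x) = s x)
    (hh : ∀ j, L.db0 a 0 s x j = 0) (j : Fin 2) :
    dbar0 κ (fun y => pr (w y) (s y)) x j = pr (L.dual.db0 (-a) κ w x j) (s x) := by
  rw [dbar0_pr hw hs, LB.db0, pr_add_left, pr_act_left x _ _ hsx, pr_smul_left,
    ← pr_act_dual (L := L) x (w x) _ hwx]
  have h := hh j
  rw [LB.db0] at h
  rw [eq_neg_of_add_eq_zero_left h, ← neg_smul, pr_smul_right, Pi.neg_apply, Pi.neg_apply]
  ring

/-- `∂̄` of the pairing with a holomorphic section, degree `1` -/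
theorem dbar1_pr_hol {w : X → Fin 2 → EuclideanSpace ℂ ι} (hw : At1 ∞ κ w x) (hs : At0 ∞ 0 s x)
    (hwx : ∀ j, LB.act (L.dual.P x) (w x j) = w x j) (hsx : LB.act (L.P x) (s x) = s x)
    (hh : ∀ j, L.db0 a 0 s x j = 0) :
    dbar1 κ (fun y p => pr (w y p) (s y)) x = pr (L.dual.db1 (-a) κ w x) (s x) := by
  rw [dbar1_pr hw hs, LB.db1, pr_add_left, pr_act_left x _ _ hsx, pr_sub_left, pr_smul_left,
    pr_smul_left, ← pr_act_dual (L := L) x (w x 1) _ (hwx 1),
    ← pr_act_dual (L := L) x (w x 0) _ (hwx 0)]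
  have h : ∀ j, LB.act (L.P x) (dbar0 0 s x j) = (-a x j) • s x := by
    intro j
    have h := hh j
    rw [LB.db0] at h
    rw [eq_neg_of_add_eq_zero_left h, neg_smul]
  rw [h, h, pr_smul_right, pr_smul_right, Pi.neg_apply, Pi.neg_apply, Pi.neg_apply]

end mfd

end Vale.Agent.P267.H365
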